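/-
Helper3 — S0175 project, package TS-0: arc maps on the circle (1-D Lebesgue identities).
Statements = `Crest.Agent.Helper32.Spec` section TS0, verbatim.
-/
import Crest.Agent.Helper32.TwoShellDefs

set_option autoImplicit false
open MeasureTheory Set
open scoped ENNReal

namespace Crest.Agent.Helper3

open Crest.Agent.Helper32

/-! ### pointwise description of the arc maps -/

section pointwise
variable {N : ℕ}

theorem floor_of_mem_arc (hN : 0 < N) (k : ℕ) {t : ℝ}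
    (ht : t ∈ Ico ((k:ℝ) / N) (((k:ℝ) + 1) / N)) : ⌊(N:ℝ) * t⌋ = (k:ℤ) := by
  have hN' : (0:ℝ) < N := by exact_mod_cast hN
  rw [Int.floor_eq_iff]
  obtain ⟨h1, h2⟩ := ht
  rw [div_le_iff₀ hN'] at h1
  rw [lt_div_iff₀ hN'] at h2
  push_cast
  constructor <;> nlinarith

theorem fract_of_mem_arc (hN : 0 < N) (k : ℕ) {t : ℝ}
    (ht : t ∈ Ico ((k:ℝ) / N) (((k:ℝ) + 1) / N)) : Int.fract ((N:ℝ) * t) = (N:ℝ) * t - k := by
  rw [Int.fract, floor_of_mem_arc hN k ht]; simp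

theorem arcC1_of_mem_arc (hN : 0 < N) (k : ℕ) {t : ℝ}
    (ht : t ∈ Ico ((k:ℝ) / N) (((k:ℝ) + 1) / N)) :
    arcC1 N t = 1 / 2 * t + (k:ℝ) / (2 * N) := by
  have hN' : (0:ℝ) < N := by exact_mod_cast hN
  unfold arcC1
  rw [fract_of_mem_arc hN k ht, floor_of_mem_arc hN k ht]
  push_cast
  field_simp
  ring

theorem arcC2_of_mem_arc (hN : 0 < N) (k : ℕ) {t : ℝ}
    (ht : t ∈ Ico ((k:ℝ) / N) (((k:ℝ) + 1) / N)) :
    arcC2 N t = 1 / 2 * t + ((k:ℝ) + 1) / (2 * N) := by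
  have hN' : (0:ℝ) < N := by exact_mod_cast hN
  unfold arcC2
  rw [fract_of_mem_arc hN k ht, floor_of_mem_arc hN k ht]
  push_cast
  field_simp
  ring

theorem half1_subset_arc (hN : 0 < N) (k : ℕ) :
    Ico ((k:ℝ) / N) (((k:ℝ) + 1 / 2) / N) ⊆ Ico ((k:ℝ) / N) (((k:ℝ) + 1) / N) := by
  have hN' : (0:ℝ) < N := by exact_mod_cast hN
  intro t ht
  refine ⟨ht.1, lt_of_lt_of_le ht.2 ?_⟩
  apply div_le_div_of_nonneg_right _ hN'.le
  linarith

theorem half2_subset_arc (hN : 0 < N) (k : ℕ) :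
    Ico (((k:ℝ) + 1 / 2) / N) (((k:ℝ) + 1) / N) ⊆ Ico ((k:ℝ) / N) (((k:ℝ) + 1) / N) := by
  have hN' : (0:ℝ) < N := by exact_mod_cast hN
  intro t ht
  refine ⟨le_trans ?_ ht.1, ht.2⟩
  apply div_le_div_of_nonneg_right _ hN'.le
  linarith

theorem arcD_of_mem_half1 (hN : 0 < N) (k : ℕ) {t : ℝ}
    (ht : t ∈ Ico ((k:ℝ) / N) (((k:ℝ) + 1 / 2) / N)) :
    arcD N t = 2 * t + (-((k:ℝ) / N)) := by
  have hN' : (0:ℝ) < N := by exact_mod_cast hN
  have ht' := half1_subset_arc hN k ht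
  have hfr : Int.fract (2 * (N:ℝ) * t) = 2 * (N:ℝ) * t - 2 * k := by
    rw [Int.fract_eq_iff]
    obtain ⟨h1, h2⟩ := ht
    rw [div_le_iff₀ hN'] at h1
    rw [lt_div_iff₀ hN'] at h2
    refine ⟨by nlinarith, by nlinarith, ⟨2 * (k:ℤ), by push_cast; ring⟩⟩
  unfold arcD
  rw [hfr, floor_of_mem_arc hN k ht']
  push_cast
  field_simp
  ring

theorem arcD_of_mem_half2 (hN : 0 < N) (k : ℕ) {t : ℝ}
    (ht : t ∈ Ico (((k:ℝ) + 1 / 2) / N) (((k:ℝ) + 1) / N)) :
    arcD N t = 2 * t + (-(((k:ℝ) + 1) / N)) := by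
  have hN' : (0:ℝ) < N := by exact_mod_cast hN
  have ht' := half2_subset_arc hN k ht
  have hfr : Int.fract (2 * (N:ℝ) * t) = 2 * (N:ℝ) * t - (2 * k + 1) := by
    rw [Int.fract_eq_iff]
    obtain ⟨h1, h2⟩ := ht
    rw [div_le_iff₀ hN'] at h1
    rw [lt_div_iff₀ hN'] at h2
    refine ⟨by nlinarith, by nlinarith, ⟨2 * (k:ℤ) + 1, by push_cast; ring⟩⟩
  unfold arcD
  rw [hfr, floor_of_mem_arc hN k ht']
  push_cast
  field_simp
  ring

theorem arc_inter_arcT1 (hN : 0 < N) (k : ℕ) :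
    Ico ((k:ℝ) / N) (((k:ℝ) + 1) / N) ∩ arcT1 N = Ico ((k:ℝ) / N) (((k:ℝ) + 1 / 2) / N) := by
  have hN' : (0:ℝ) < N := by exact_mod_cast hN
  ext t
  constructor
  · rintro ⟨ht, hT⟩
    refine ⟨ht.1, ?_⟩
    have hT' : Int.fract ((N:ℝ) * t) < 1 / 2 := hT
    rw [fract_of_mem_arc hN k ht] at hT'
    rw [lt_div_iff₀ hN']
    linarith
  · intro ht
    have ht' := half1_subset_arc hN k ht
    refine ⟨ht', ?_⟩
    show Int.fract ((N:ℝ) * t) < 1 / 2
    rw [fract_of_mem_arc hN k ht']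
    have h2 := ht.2
    rw [lt_div_iff₀ hN'] at h2
    linarith

theorem arc_inter_compl_arcT1 (hN : 0 < N) (k : ℕ) :
    Ico ((k:ℝ) / N) (((k:ℝ) + 1) / N) ∩ (arcT1 N)ᶜ =
      Ico (((k:ℝ) + 1 / 2) / N) (((k:ℝ) + 1) / N) := by
  have hN' : (0:ℝ) < N := by exact_mod_cast hN
  ext t
  constructor
  · rintro ⟨ht, hT⟩
    refine ⟨?_, ht.2⟩
    have hT' : ¬ Int.fract ((N:ℝ) * t) < 1 / 2 := hT
    rw [fract_of_mem_arc hN k ht, not_lt] at hT'
    rw [div_le_iff₀ hN']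
    linarith
  · intro ht
    have ht' := half2_subset_arc hN k ht
    refine ⟨ht', ?_⟩
    show ¬ Int.fract ((N:ℝ) * t) < 1 / 2
    rw [fract_of_mem_arc hN k ht', not_lt]
    have h1 := ht.1
    rw [div_le_iff₀ hN'] at h1
    linarith

end pointwise

/-! ### measurability and distance bounds (Spec TS0, first part) -/

section TS0
variable (N : ℕ)

theorem measurableSet_arcT1 : MeasurableSet (arcT1 N) := by
  unfold arcT1
  exact measurableSet_lt (measurable_fract.comp (measurable_const_mul _)) measurable_const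

theorem measurable_arcC1 : Measurable (arcC1 N) := by
  have h : arcC1 N = fun t : ℝ =>
      (((N:ℝ) * t - Int.fract ((N:ℝ) * t)) + Int.fract ((N:ℝ) * t) / 2) / N := by
    funext t; unfold arcC1; rw [Int.self_sub_fract]
  rw [h]
  have hf : Measurable fun t : ℝ => Int.fract ((N:ℝ) * t) :=
    measurable_fract.comp (measurable_const_mul _)
  exact (((measurable_const_mul _).sub hf).add (hf.div_const 2)).div_const _

theorem measurable_arcC2 : Measurable (arcC2 N) := by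
  have h : arcC2 N = fun t : ℝ =>
      (((N:ℝ) * t - Int.fract ((N:ℝ) * t)) + 1 / 2 + Int.fract ((N:ℝ) * t) / 2) / N := by
    funext t; unfold arcC2; rw [Int.self_sub_fract]
  rw [h]
  have hf : Measurable fun t : ℝ => Int.fract ((N:ℝ) * t) :=
    measurable_fract.comp (measurable_const_mul _)
  exact ((((measurable_const_mul _).sub hf).add measurable_const).add (hf.div_const 2)).div_const _

theorem measurable_arcD : Measurable (arcD N) := by
  have h : arcD N = fun t : ℝ =>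
      (((N:ℝ) * t - Int.fract ((N:ℝ) * t)) + Int.fract (2 * (N:ℝ) * t)) / N := by
    funext t; unfold arcD; rw [Int.self_sub_fract]
  rw [h]
  have hf : Measurable fun t : ℝ => Int.fract ((N:ℝ) * t) :=
    measurable_fract.comp (measurable_const_mul _)
  have hf2 : Measurable fun t : ℝ => Int.fract (2 * (N:ℝ) * t) :=
    measurable_fract.comp (measurable_const_mul _)
  exact (((measurable_const_mul _).sub hf).add hf2).div_const _

theorem abs_arcC1_sub_le (hN : 0 < N) (t : ℝ) : |arcC1 N t - t| ≤ 1 / N := by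
  have hN' : (0:ℝ) < N := by exact_mod_cast hN
  have h0 := Int.fract_nonneg ((N:ℝ) * t)
  have h1 := Int.fract_lt_one ((N:ℝ) * t)
  have ht : t = ((⌊(N:ℝ) * t⌋ : ℝ) + Int.fract ((N:ℝ) * t)) / N := by
    rw [Int.floor_add_fract]; field_simp
  have h : arcC1 N t - t = (-(Int.fract ((N:ℝ) * t) / 2)) / N := by
    unfold arcC1
    conv_lhs => rw [ht]
    rw [Int.floor_add_fract]
    field_simp
    rw [Int.fract]
    ring
  rw [h, abs_div, abs_of_pos hN']
  apply div_le_div_of_nonneg_right _ hN'.le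
  rw [abs_le]; constructor <;> linarith

theorem abs_arcC2_sub_le (hN : 0 < N) (t : ℝ) : |arcC2 N t - t| ≤ 1 / N := by
  have hN' : (0:ℝ) < N := by exact_mod_cast hN
  have h0 := Int.fract_nonneg ((N:ℝ) * t)
  have h1 := Int.fract_lt_one ((N:ℝ) * t)
  have h : arcC2 N t - t = (1 / 2 - Int.fract ((N:ℝ) * t) / 2) / N := by
    unfold arcC2
    rw [eq_div_iff hN'.ne']
    rw [sub_mul, div_mul_cancel₀ _ hN'.ne']
    have := Int.floor_add_fract ((N:ℝ) * t)
    linarith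
  rw [h, abs_div, abs_of_pos hN']
  apply div_le_div_of_nonneg_right _ hN'.le
  rw [abs_le]; constructor <;> linarith

theorem abs_arcD_sub_le (hN : 0 < N) (t : ℝ) : |arcD N t - t| ≤ 1 / N := by
  have hN' : (0:ℝ) < N := by exact_mod_cast hN
  have h0 := Int.fract_nonneg ((N:ℝ) * t)
  have h1 := Int.fract_lt_one ((N:ℝ) * t)
  have g0 := Int.fract_nonneg (2 * (N:ℝ) * t)
  have g1 := Int.fract_lt_one (2 * (N:ℝ) * t)
  have h : arcD N t - t = (Int.fract (2 * (N:ℝ) * t) - Int.fract ((N:ℝ) * t)) / N := by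
    unfold arcD
    rw [eq_div_iff hN'.ne']
    rw [sub_mul, div_mul_cancel₀ _ hN'.ne']
    have := Int.floor_add_fract ((N:ℝ) * t)
    linarith
  rw [h, abs_div, abs_of_pos hN']
  apply div_le_div_of_nonneg_right _ hN'.le
  rw [abs_le]; constructor <;> linarith

end TS0

/-! ### decomposition of `[0,1)` into arcs, affine substitution -/

theorem lintegral_Ico_partition (μ : Measure ℝ) (H : ℝ → ℝ≥0∞) (a : ℕ → ℝ) (ha : Monotone a)
    (m : ℕ) :
    ∫⁻ t in Ico (a 0) (a m), H t ∂μ =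
      ∑ k ∈ Finset.range m, ∫⁻ t in Ico (a k) (a (k + 1)), H t ∂μ := by
  induction m with
  | zero => simp
  | succ m ih =>
    rw [Finset.sum_range_succ, ← ih, ← lintegral_union measurableSet_Ico,
      Ico_union_Ico_eq_Ico (ha (Nat.zero_le m)) (ha (Nat.le_succ m))]
    exact Set.disjoint_left.2 (fun t h1 h2 => not_lt.2 h2.1 h1.2)

theorem lintegral_Ico01_arcs {N : ℕ} (hN : 0 < N) (μ : Measure ℝ) (H : ℝ → ℝ≥0∞) :
    ∫⁻ t in Ico (0:ℝ) 1, H t ∂μ =
      ∑ k ∈ Finset.range N, ∫⁻ t in Ico ((k:ℝ) / N) (((k:ℝ) + 1) / N), H t ∂μ := by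
  have hN' : (0:ℝ) < N := by exact_mod_cast hN
  have ha : Monotone fun k : ℕ => (k:ℝ) / N := by
    intro i j hij
    apply div_le_div_of_nonneg_right _ hN'.le
    exact_mod_cast hij
  have h := lintegral_Ico_partition μ H (fun k : ℕ => (k:ℝ) / N) ha N
  simp only [Nat.cast_zero, zero_div, div_self hN'.ne', Nat.cast_add, Nat.cast_one] at h
  exact h

theorem lintegral_T1_arcs {N : ℕ} (hN : 0 < N) (H : ℝ → ℝ≥0∞) :
    ∫⁻ t in Ico (0:ℝ) 1 ∩ arcT1 N, H t =
      ∑ k ∈ Finset.range N, ∫⁻ t in Ico ((k:ℝ) / N) (((k:ℝ) + 1 / 2) / N), H t := by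
  rw [← Measure.restrict_restrict measurableSet_Ico,
    lintegral_Ico01_arcs hN (volume.restrict (arcT1 N)) H]
  refine Finset.sum_congr rfl (fun k _ => ?_)
  rw [Measure.restrict_restrict measurableSet_Ico, arc_inter_arcT1 hN k]

theorem lintegral_T2_arcs {N : ℕ} (hN : 0 < N) (H : ℝ → ℝ≥0∞) :
    ∫⁻ t in Ico (0:ℝ) 1 \ arcT1 N, H t =
      ∑ k ∈ Finset.range N, ∫⁻ t in Ico (((k:ℝ) + 1 / 2) / N) (((k:ℝ) + 1) / N), H t := by
  rw [Set.sdiff_eq, ← Measure.restrict_restrict measurableSet_Ico,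
    lintegral_Ico01_arcs hN (volume.restrict (arcT1 N)ᶜ) H]
  refine Finset.sum_congr rfl (fun k _ => ?_)
  rw [Measure.restrict_restrict measurableSet_Ico, arc_inter_compl_arcT1 hN k]

theorem lintegral_Ico_affine (a b α β : ℝ) (ha : 0 < a) (G : ℝ → ℝ≥0∞) :
    ∫⁻ x in Ico (a * α + b) (a * β + b), G x =
      ENNReal.ofReal a * ∫⁻ t in Ico α β, G (a * t + b) := by
  rw [← image_affine_Ico ha b α β]
  rw [lintegral_image_eq_lintegral_abs_deriv_mul measurableSet_Ico (f' := fun _ => a) ?_ ?_ G]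
  · rw [lintegral_const_mul' _ _ ENNReal.ofReal_ne_top, abs_of_pos ha]
  · intro x _
    have h := ((hasDerivAt_id x).const_mul a).add_const b
    simp only [id, mul_one] at h
    exact h.hasDerivWithinAt
  · intro x _ y _ hxy
    have hxy' : a * x + b = a * y + b := hxy
    have : a * x = a * y := by linarith
    exact mul_left_cancel₀ ha.ne' this

/-! ### the Spec identities -/

section TS0int
set_option linter.unusedVariables false
variable (N : ℕ) (F : ℝ → ℝ≥0∞)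

theorem arc_C1 (hN : 0 < N) (hF : Measurable F) (hper : ∀ t, F (t + 1) = F t) :
    ∫⁻ t in Ico (0:ℝ) 1, F (arcC1 N t) = 2 * ∫⁻ t in Ico (0:ℝ) 1 ∩ arcT1 N, F t := by
  have hN' : (0:ℝ) < N := by exact_mod_cast hN
  rw [lintegral_Ico01_arcs hN volume, lintegral_T1_arcs hN, Finset.mul_sum]
  refine Finset.sum_congr rfl (fun k _ => ?_)
  rw [setLIntegral_congr_fun measurableSet_Ico
    (fun t ht => by dsimp only; rw [arcC1_of_mem_arc hN k ht] :
      EqOn (fun t => F (arcC1 N t)) (fun t => F (1 / 2 * t + (k:ℝ) / (2 * N))) _)]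
  have h := lintegral_Ico_affine (1 / 2) ((k:ℝ) / (2 * N)) ((k:ℝ) / N) (((k:ℝ) + 1) / N)
    (by norm_num) F
  have e1 : 1 / 2 * ((k:ℝ) / N) + (k:ℝ) / (2 * N) = (k:ℝ) / N := by field_simp; ring
  have e2 : 1 / 2 * (((k:ℝ) + 1) / N) + (k:ℝ) / (2 * N) = ((k:ℝ) + 1 / 2) / N := by
    field_simp; ring
  rw [e1, e2] at h
  rw [h, ← mul_assoc]
  have : (2:ℝ≥0∞) * ENNReal.ofReal (1 / 2) = 1 := by
    rw [one_div, ENNReal.ofReal_inv_of_pos (by norm_num)]
    simp [ENNReal.mul_inv_cancel]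
  rw [this, one_mul]

theorem arc_C2 (hN : 0 < N) (hF : Measurable F) (hper : ∀ t, F (t + 1) = F t) :
    ∫⁻ t in Ico (0:ℝ) 1, F (arcC2 N t) = 2 * ∫⁻ t in Ico (0:ℝ) 1 \ arcT1 N, F t := by
  have hN' : (0:ℝ) < N := by exact_mod_cast hN
  rw [lintegral_Ico01_arcs hN volume, lintegral_T2_arcs hN, Finset.mul_sum]
  refine Finset.sum_congr rfl (fun k _ => ?_)
  rw [setLIntegral_congr_fun measurableSet_Ico
    (fun t ht => by dsimp only; rw [arcC2_of_mem_arc hN k ht] :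
      EqOn (fun t => F (arcC2 N t)) (fun t => F (1 / 2 * t + ((k:ℝ) + 1) / (2 * N))) _)]
  have h := lintegral_Ico_affine (1 / 2) (((k:ℝ) + 1) / (2 * N)) ((k:ℝ) / N) (((k:ℝ) + 1) / N)
    (by norm_num) F
  have e1 : 1 / 2 * ((k:ℝ) / N) + ((k:ℝ) + 1) / (2 * N) = ((k:ℝ) + 1 / 2) / N := by
    field_simp; ring
  have e2 : 1 / 2 * (((k:ℝ) + 1) / N) + ((k:ℝ) + 1) / (2 * N) = ((k:ℝ) + 1) / N := by
    field_simp; ring
  rw [e1, e2] at h
  rw [h, ← mul_assoc]
  have : (2:ℝ≥0∞) * ENNReal.ofReal (1 / 2) = 1 := by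
    rw [one_div, ENNReal.ofReal_inv_of_pos (by norm_num)]
    simp [ENNReal.mul_inv_cancel]
  rw [this, one_mul]

theorem arc_D1 (hN : 0 < N) (hF : Measurable F) (hper : ∀ t, F (t + 1) = F t) :
    2 * ∫⁻ t in Ico (0:ℝ) 1 ∩ arcT1 N, F (arcD N t) = ∫⁻ t in Ico (0:ℝ) 1, F t := by
  have hN' : (0:ℝ) < N := by exact_mod_cast hN
  rw [lintegral_Ico01_arcs hN volume, lintegral_T1_arcs hN, Finset.mul_sum]
  refine Finset.sum_congr rfl (fun k _ => ?_)
  rw [setLIntegral_congr_fun measurableSet_Ico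
    (fun t ht => by dsimp only; rw [arcD_of_mem_half1 hN k ht] :
      EqOn (fun t => F (arcD N t)) (fun t => F (2 * t + (-((k:ℝ) / N)))) _)]
  have h := lintegral_Ico_affine 2 (-((k:ℝ) / N)) ((k:ℝ) / N) (((k:ℝ) + 1 / 2) / N)
    (by norm_num) F
  have e1 : 2 * ((k:ℝ) / N) + (-((k:ℝ) / N)) = (k:ℝ) / N := by ring
  have e2 : 2 * (((k:ℝ) + 1 / 2) / N) + (-((k:ℝ) / N)) = ((k:ℝ) + 1) / N := by
    field_simp; ring
  rw [e1, e2] at h
  rw [h]
  simp

theorem arc_D2 (hN : 0 < N) (hF : Measurable F) (hper : ∀ t, F (t + 1) = F t) :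
    2 * ∫⁻ t in Ico (0:ℝ) 1 \ arcT1 N, F (arcD N t) = ∫⁻ t in Ico (0:ℝ) 1, F t := by
  have hN' : (0:ℝ) < N := by exact_mod_cast hN
  rw [lintegral_Ico01_arcs hN volume, lintegral_T2_arcs hN, Finset.mul_sum]
  refine Finset.sum_congr rfl (fun k _ => ?_)
  rw [setLIntegral_congr_fun measurableSet_Ico
    (fun t ht => by dsimp only; rw [arcD_of_mem_half2 hN k ht] :
      EqOn (fun t => F (arcD N t)) (fun t => F (2 * t + (-(((k:ℝ) + 1) / N)))) _)]
  have h := lintegral_Ico_affine 2 (-(((k:ℝ) + 1) / N)) (((k:ℝ) + 1 / 2) / N)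
    (((k:ℝ) + 1) / N) (by norm_num) F
  have e1 : 2 * (((k:ℝ) + 1 / 2) / N) + (-(((k:ℝ) + 1) / N)) = (k:ℝ) / N := by
    field_simp; ring
  have e2 : 2 * (((k:ℝ) + 1) / N) + (-(((k:ℝ) + 1) / N)) = ((k:ℝ) + 1) / N := by ring
  rw [e1, e2] at h
  rw [h]
  simp

/-- the integral of a `1`-periodic function over `(a, a+1]` does not depend on `a` -/
theorem lintegral_Ioc_periodic (hper : ∀ t, F (t + 1) = F t) (a : ℝ) :
    ∫⁻ t in Ioc a (a + 1), F t = ∫⁻ t in Ioc (0:ℝ) (0 + 1), F t := by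
  have hp : Function.Periodic F 1 := hper
  have h1 := UnitAddCircle.lintegral_preimage a hp.lift
  have h2 := UnitAddCircle.lintegral_preimage 0 hp.lift
  simp only [Function.Periodic.lift_coe] at h1 h2
  rw [h1, h2]

/-- rotation invariance on the circle -/
theorem arc_shift (hF : Measurable F) (hper : ∀ t, F (t + 1) = F t) (a : ℝ) :
    ∫⁻ t in Ico (0:ℝ) 1, F (t + a) = ∫⁻ t in Ico (0:ℝ) 1, F t := by
  have h := lintegral_Ico_affine 1 a 0 1 one_pos F
  simp only [mul_zero, zero_add, mul_one, one_mul, ENNReal.ofReal_one] at h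
  rw [← h, add_comm 1 a, setLIntegral_congr (Ico_ae_eq_Ioc (μ := volume) (a := a) (b := a + 1)),
    lintegral_Ioc_periodic F hper a, zero_add,
    setLIntegral_congr (Ico_ae_eq_Ioc (μ := volume) (a := (0:ℝ)) (b := 1))]

theorem setLIntegral_inter_eq_indicator (S T : Set ℝ) (hT : MeasurableSet T) (H : ℝ → ℝ≥0∞) :
    ∫⁻ t in S ∩ T, H t = ∫⁻ t in S, T.indicator H t := by
  rw [lintegral_indicator hT, Measure.restrict_restrict hT, Set.inter_comm]

theorem fract_add_half (x : ℝ) :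
    Int.fract (x + 1 / 2) =
      if Int.fract x < 1 / 2 then Int.fract x + 1 / 2 else Int.fract x - 1 / 2 := by
  have h0 := Int.fract_nonneg x
  have h1 := Int.fract_lt_one x
  split_ifs with h
  · rw [Int.fract_eq_iff]
    refine ⟨by linarith, by linarith, ⟨⌊x⌋, ?_⟩⟩
    rw [Int.fract]; ring
  · rw [Int.fract_eq_iff]
    rw [not_lt] at h
    refine ⟨by linarith, by linarith, ⟨⌊x⌋ + 1, ?_⟩⟩
    rw [Int.fract]; push_cast; ring

theorem mem_arcT1_add_half (hN : 0 < N) (j : ℤ) (t : ℝ) :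
    t + (1 / (2 * (N:ℝ)) + j / N) ∈ arcT1 N ↔ t ∉ arcT1 N := by
  have hN' : (0:ℝ) < N := by exact_mod_cast hN
  have e : (N:ℝ) * (t + (1 / (2 * (N:ℝ)) + j / N)) = ((N:ℝ) * t + 1 / 2) + j := by
    field_simp
    ring
  show Int.fract ((N:ℝ) * (t + (1 / (2 * (N:ℝ)) + j / N))) < 1 / 2 ↔
    ¬ Int.fract ((N:ℝ) * t) < 1 / 2
  rw [e, Int.fract_add_intCast, fract_add_half]
  have h0 := Int.fract_nonneg ((N:ℝ) * t)
  have h1 := Int.fract_lt_one ((N:ℝ) * t)
  split_ifs with h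
  · constructor
    · intro h'; linarith
    · intro h'; exact absurd h h'
  · constructor
    · intro _; exact h
    · intro _; linarith

theorem arcT1_add_one (t : ℝ) : t + 1 ∈ arcT1 N ↔ t ∈ arcT1 N := by
  show Int.fract ((N:ℝ) * (t + 1)) < 1 / 2 ↔ Int.fract ((N:ℝ) * t) < 1 / 2
  rw [mul_add, mul_one, Int.fract_add_natCast]

/-- half-arc shift forward (plus a rotation by a multiple of `1/N`) : type 1 → type 2 -/
theorem arc_half_fwd (hN : 0 < N) (hF : Measurable F) (hper : ∀ t, F (t + 1) = F t) (j : ℤ) :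
    ∫⁻ t in Ico (0:ℝ) 1 ∩ arcT1 N, F (t + (1 / (2 * (N:ℝ)) + j / N)) =
      ∫⁻ t in Ico (0:ℝ) 1 \ arcT1 N, F t := by
  classical
  have hT := measurableSet_arcT1 N
  set G : ℝ → ℝ≥0∞ := (arcT1 N)ᶜ.indicator F with hG
  have hGm : Measurable G := hF.indicator hT.compl
  have hGper : ∀ t, G (t + 1) = G t := by
    intro t
    simp only [hG, Set.indicator_apply, Set.mem_compl_iff, arcT1_add_one, hper]
  rw [setLIntegral_inter_eq_indicator _ _ hT, Set.sdiff_eq,
    setLIntegral_inter_eq_indicator _ _ hT.compl, ← arc_shift G hGm hGper (1 / (2 * (N:ℝ)) + j / N)]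
  refine setLIntegral_congr_fun measurableSet_Ico (fun t _ => ?_)
  simp only [hG, Set.indicator_apply, Set.mem_compl_iff, mem_arcT1_add_half N hN j t, not_not]

/-- half-arc shift backward (plus a rotation by a multiple of `1/N`) : type 2 → type 1 -/
theorem arc_half_bwd (hN : 0 < N) (hF : Measurable F) (hper : ∀ t, F (t + 1) = F t) (j : ℤ) :
    ∫⁻ t in Ico (0:ℝ) 1 \ arcT1 N, F (t + (-(1 / (2 * (N:ℝ))) + j / N)) =
      ∫⁻ t in Ico (0:ℝ) 1 ∩ arcT1 N, F t := by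
  classical
  have hN' : (0:ℝ) < N := by exact_mod_cast hN
  have hT := measurableSet_arcT1 N
  set G : ℝ → ℝ≥0∞ := (arcT1 N).indicator F with hG
  have hGm : Measurable G := hF.indicator hT
  have hGper : ∀ t, G (t + 1) = G t := by
    intro t
    simp only [hG, Set.indicator_apply, arcT1_add_one, hper]
  have e : -(1 / (2 * (N:ℝ))) + (j:ℝ) / N = 1 / (2 * (N:ℝ)) + ((j - 1 : ℤ) : ℝ) / N := by
    push_cast; field_simp; ring
  rw [Set.sdiff_eq, setLIntegral_inter_eq_indicator _ _ hT.compl,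
    setLIntegral_inter_eq_indicator _ _ hT,
    ← arc_shift G hGm hGper (-(1 / (2 * (N:ℝ))) + j / N)]
  refine setLIntegral_congr_fun measurableSet_Ico (fun t _ => ?_)
  have hiff := mem_arcT1_add_half N hN (j - 1) t
  rw [← e] at hiff
  by_cases h : t ∈ arcT1 N
  · have h' : t + (-(1 / (2 * (N:ℝ))) + j / N) ∉ arcT1 N := fun hh => (hiff.1 hh) h
    have h2 : t ∉ (arcT1 N)ᶜ := fun hh => hh h
    rw [Set.indicator_of_notMem h2, hG, Set.indicator_of_notMem h']
  · have h' : t + (-(1 / (2 * (N:ℝ))) + j / N) ∈ arcT1 N := hiff.2 h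
    have h2 : t ∈ (arcT1 N)ᶜ := h
    rw [Set.indicator_of_mem h2, hG, Set.indicator_of_mem h']

end TS0int

end Crest.Agent.Helper3
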